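import Mathlib

open Real MeasureTheory intervalIntegral Set
open scoped ContDiff

namespace Vale.Agent.P205

/-- primitive of a smooth function is smooth -/
lemma contDiff_primitive {W : ℝ → ℝ} (hW : ContDiff ℝ ∞ W) :
    ContDiff ℝ ∞ (fun x => ∫ t in (0:ℝ)..x, W t) := by
  have hd : ∀ x, HasDerivAt (fun x => ∫ t in (0:ℝ)..x, W t) (W x) x := fun x =>
    intervalIntegral.integral_hasDerivAt_right (hW.continuous.intervalIntegrable _ _)
      (hW.continuous.stronglyMeasurableAtFilter _ _) hW.continuous.continuousAt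
  rw [contDiff_infty_iff_deriv]
  refine ⟨fun x => (hd x).differentiableAt, ?_⟩
  have : deriv (fun x => ∫ t in (0:ℝ)..x, W t) = W := by
    ext x; exact (hd x).deriv
  rw [this]; exact hW

lemma hasDerivAt_primitive {W : ℝ → ℝ} (hW : Continuous W) (x : ℝ) :
    HasDerivAt (fun x => ∫ t in (0:ℝ)..x, W t) (W x) x :=
  intervalIntegral.integral_hasDerivAt_right (hW.intervalIntegrable _ _)
      (hW.stronglyMeasurableAtFilter _ _) hW.continuousAt

lemma primitive_add_period {W : ℝ → ℝ} (hW : Continuous W) {T : ℝ}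
    (hper : Function.Periodic W T) (x : ℝ) :
    (∫ t in (0:ℝ)..(x+T), W t) = (∫ t in (0:ℝ)..x, W t) + ∫ t in (0:ℝ)..T, W t := by
  have h1 : (∫ t in (0:ℝ)..(x+T), W t) = (∫ t in (0:ℝ)..x, W t) + ∫ t in x..(x+T), W t :=
    (intervalIntegral.integral_add_adjacent_intervals (hW.intervalIntegrable _ _)
      (hW.intervalIntegrable _ _)).symm
  rw [h1]
  congr 1
  have := hper.intervalIntegral_add_eq x 0
  simpa using this

/-- the profile -/
noncomputable def uu (σ t : ℝ) (M : ℕ) (d : ℝ) : ℝ := σ + t * cos (M * d)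

noncomputable def vv (σ t : ℝ) (M : ℕ) (d : ℝ) : ℝ :=
  Real.sqrt ((t * M * sin (M * d))^2 / (4 * uu σ t M d * (1 - uu σ t M d))
    + uu σ t M d * (1 - uu σ t M d))

lemma uu_bounds {σ t : ℝ} (h1 : 1/2 ≤ σ) (h2 : σ < 1) (ht0 : 0 ≤ t) (ht1 : t ≤ (1-σ)/2)
    (M : ℕ) (d : ℝ) : 1/4 ≤ uu σ t M d ∧ (1-σ)/2 ≤ 1 - uu σ t M d := by
  unfold uu
  have hc1 := Real.cos_le_one (M * d)
  have hc2 := Real.neg_one_le_cos (M * d)
  constructor
  · nlinarith
  · nlinarith

lemma prod_bounds {σ t : ℝ} (h1 : 1/2 ≤ σ) (h2 : σ < 1) (ht0 : 0 ≤ t) (ht1 : t ≤ (1-σ)/2)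
    (M : ℕ) (d : ℝ) : (1-σ)/8 ≤ uu σ t M d * (1 - uu σ t M d) ∧
      4 * uu σ t M d * (1 - uu σ t M d) ≤ 1 := by
  obtain ⟨ha, hb⟩ := uu_bounds h1 h2 ht0 ht1 M d
  constructor
  · nlinarith
  · nlinarith [sq_nonneg (2 * uu σ t M d - 1)]

lemma arg_pos {σ t : ℝ} (h1 : 1/2 ≤ σ) (h2 : σ < 1) (ht0 : 0 ≤ t) (ht1 : t ≤ (1-σ)/2)
    (M : ℕ) (d : ℝ) : (1-σ)/8 ≤ (t * M * sin (M * d))^2 / (4 * uu σ t M d * (1 - uu σ t M d))
    + uu σ t M d * (1 - uu σ t M d) := by
  obtain ⟨ha, hb⟩ := prod_bounds h1 h2 ht0 ht1 M d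
  have : 0 ≤ (t * M * sin (M * d))^2 / (4 * uu σ t M d * (1 - uu σ t M d)) := by
    apply div_nonneg (sq_nonneg _)
    nlinarith
  linarith

lemma contDiff_vv {σ t : ℝ} (h1 : 1/2 ≤ σ) (h2 : σ < 1) (ht0 : 0 ≤ t) (ht1 : t ≤ (1-σ)/2)
    (M : ℕ) : ContDiff ℝ ∞ (vv σ t M) := by
  unfold vv
  apply ContDiff.sqrt
  · apply ContDiff.add
    · apply ContDiff.div
      · fun_prop
      · unfold uu; fun_prop
      · intro x
        have := (prod_bounds h1 h2 ht0 ht1 M x).1
        have h3 : 0 < uu σ t M x * (1 - uu σ t M x) := by linarith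
        have : 0 < 4 * uu σ t M x * (1 - uu σ t M x) := by nlinarith
        exact this.ne'
    · unfold uu; fun_prop
  · intro x
    have := arg_pos h1 h2 ht0 ht1 M x
    have : 0 < (1-σ)/8 := by linarith
    linarith

lemma vv_lower {σ t : ℝ} (h1 : 1/2 ≤ σ) (h2 : σ < 1) (ht0 : 0 ≤ t) (ht1 : t ≤ (1-σ)/2)
    (M : ℕ) (d : ℝ) : Real.sqrt ((1-σ)/8) ≤ vv σ t M d :=
  Real.sqrt_le_sqrt (arg_pos h1 h2 ht0 ht1 M d)

lemma vv_periodic (σ t : ℝ) (M : ℕ) : Function.Periodic (vv σ t M) (4*π) := by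
  intro d
  have e : (M:ℝ) * (d + 4*π) = M * d + ((2*M : ℕ) : ℝ) * (2 * π) := by push_cast; ring
  have hc : cos (M * (d + 4*π)) = cos (M * d) := by
    rw [e]; exact Real.cos_add_nat_mul_two_pi _ _
  have hs : sin (M * (d + 4*π)) = sin (M * d) := by
    rw [e]; exact Real.sin_add_nat_mul_two_pi _ _
  simp only [vv, uu, hc, hs]

/-- existence of amplitude with prescribed length -/
lemma exists_amplitude {σ : ℝ} (h1 : 1/2 ≤ σ) (h2 : σ < 1) {ℓ : ℝ} (hℓ : 2*π ≤ ℓ) :
    ∃ (M : ℕ) (t : ℝ), 0 < M ∧ 0 ≤ t ∧ t ≤ (1-σ)/2 ∧ (∫ d in (0:ℝ)..(4*π), vv σ t M d) = ℓ := by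
  obtain ⟨M, hM⟩ := exists_nat_gt (max 1 (ℓ / (2*π*((1-σ)/2))))
  have hM1 : (1:ℝ) < M := lt_of_le_of_lt (le_max_left _ _) hM
  have hM2 : ℓ / (2*π*((1-σ)/2)) < M := lt_of_le_of_lt (le_max_right _ _) hM
  have hπ := Real.pi_pos
  have hden : 0 < 2*π*((1-σ)/2) := by
    have : 0 < (1-σ)/2 := by linarith
    positivity
  have hM3 : ℓ < M * (2*π*((1-σ)/2)) := by
    rwa [div_lt_iff₀ hden] at hM2
  let tt : ℝ → ℝ := fun φ => (1-σ)/2 * ((1 - cos φ)/2)
  have htt0 : ∀ φ, 0 ≤ tt φ := by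
    intro φ
    have := Real.cos_le_one φ
    have h3 : 0 ≤ (1-σ)/2 := by linarith
    have h4 : 0 ≤ (1 - cos φ)/2 := by linarith
    exact mul_nonneg h3 h4
  have htt1 : ∀ φ, tt φ ≤ (1-σ)/2 := by
    intro φ
    have := Real.neg_one_le_cos φ
    have h3 : 0 ≤ (1-σ)/2 := by linarith
    have h4 : (1 - cos φ)/2 ≤ 1 := by linarith
    calc tt φ = (1-σ)/2 * ((1 - cos φ)/2) := rfl
      _ ≤ (1-σ)/2 * 1 := by gcongr
      _ = _ := by ring
  have hcont : Continuous (fun φ => ∫ d in (0:ℝ)..(4*π), vv σ (tt φ) M d) := by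
    apply intervalIntegral.continuous_parametric_intervalIntegral_of_continuous'
    have hne : ∀ p : ℝ × ℝ, 4 * uu σ (tt p.1) M p.2 * (1 - uu σ (tt p.1) M p.2) ≠ 0 := by
      intro p
      have := (prod_bounds h1 h2 (htt0 p.1) (htt1 p.1) M p.2).1
      have h3 : 0 < uu σ (tt p.1) M p.2 * (1 - uu σ (tt p.1) M p.2) := by linarith
      have : 0 < 4 * uu σ (tt p.1) M p.2 * (1 - uu σ (tt p.1) M p.2) := by nlinarith
      exact this.ne'
    have hu : Continuous (fun p : ℝ × ℝ => uu σ (tt p.1) M p.2) := by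
      simp only [uu, tt]; fun_prop
    have : Function.uncurry (fun φ d => vv σ (tt φ) M d) = fun p : ℝ × ℝ =>
      Real.sqrt ((tt p.1 * M * sin (M * p.2))^2 / (4 * uu σ (tt p.1) M p.2 * (1 - uu σ (tt p.1) M p.2))
    + uu σ (tt p.1) M p.2 * (1 - uu σ (tt p.1) M p.2)) := by
      ext p; rfl
    rw [this]
    apply Real.continuous_sqrt.comp
    apply Continuous.add
    · apply Continuous.div _ _ hne
      · simp only [tt]; fun_prop
      · fun_prop
    · fun_prop
  have hL0 : (∫ d in (0:ℝ)..(4*π), vv σ (tt 0) M d) ≤ ℓ := by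
    have h0 : tt 0 = 0 := by simp [tt]
    have : ∀ d, vv σ (tt 0) M d = Real.sqrt (σ * (1-σ)) := by
      intro d; simp [vv, uu, h0]
    simp only [this]
    rw [intervalIntegral.integral_const]
    have hs : Real.sqrt (σ * (1-σ)) ≤ 1/2 := by
      rw [show (1/2:ℝ) = Real.sqrt ((1/2)^2) by rw [Real.sqrt_sq]; norm_num]
      apply Real.sqrt_le_sqrt
      nlinarith [sq_nonneg (2*σ-1)]
    simp only [smul_eq_mul, sub_zero]
    nlinarith
  have hL1 : ℓ ≤ (∫ d in (0:ℝ)..(4*π), vv σ (tt π) M d) := by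
    have h0 : tt π = (1-σ)/2 := by simp [tt]
    have hlow : ∀ d, (1-σ)/2 * M * (sin (M * d))^2 ≤ vv σ (tt π) M d := by
      intro d
      rw [h0]
      have hb := (prod_bounds h1 h2 (le_of_lt (by linarith) : (0:ℝ) ≤ (1-σ)/2) le_rfl M d)
      have hs1 : |sin (M * d)| ≤ 1 := Real.abs_sin_le_one _
      have hA : 0 ≤ (1-σ)/2 * M := by
        have : 0 ≤ (1-σ)/2 := by linarith
        positivity
      have hnn : 0 ≤ (1-σ)/2 * M * (sin (M * d))^2 := by positivity
      unfold vv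
      apply Real.le_sqrt_of_sq_le
      have hp : 0 < 4 * uu σ ((1-σ)/2) M d * (1 - uu σ ((1-σ)/2) M d) := by nlinarith [hb.1]
      have h5 : ((1-σ)/2 * M * sin (M * d))^2 ≤
        ((1-σ)/2 * M * sin (M * d))^2 / (4 * uu σ ((1-σ)/2) M d * (1 - uu σ ((1-σ)/2) M d)) := by
        rw [le_div_iff₀ hp]
        have := sq_nonneg ((1-σ)/2 * M * sin (M * d))
        nlinarith [hb.2]
      have h6 : ((1-σ)/2 * M * (sin (M * d))^2)^2 ≤ ((1-σ)/2 * M * sin (M * d))^2 := by
        have hs2 : (sin (M * d))^2 ≤ 1 := Real.sin_sq_le_one _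
        have e1 : ((1-σ)/2 * M * (sin (M * d))^2)^2 = ((1-σ)/2 * M * sin (M * d))^2 * (sin (M*d))^2 := by ring
        rw [e1]
        have := sq_nonneg ((1-σ)/2 * M * sin (M * d))
        nlinarith
      have h7 : 0 ≤ uu σ ((1-σ)/2) M d * (1 - uu σ ((1-σ)/2) M d) := by nlinarith [hb.1]
      linarith
    have hint : (∫ d in (0:ℝ)..(4*π), (1-σ)/2 * M * (sin (M * d))^2) = M * (2*π*((1-σ)/2)) := by
      rw [intervalIntegral.integral_const_mul]
      have hMne : (M:ℝ) ≠ 0 := by positivity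
      rw [intervalIntegral.integral_comp_mul_left (fun x => sin x ^ 2) hMne]
      rw [integral_sin_sq]
      have e1 : sin (M * (4*π)) = 0 := by
        have : (M:ℝ) * (4*π) = ((4*M : ℕ):ℝ) * π := by push_cast; ring
        rw [this]; exact Real.sin_nat_mul_pi _
      rw [e1]
      simp
      field_simp
      ring
    have hmono : (∫ d in (0:ℝ)..(4*π), (1-σ)/2 * M * (sin (M * d))^2) ≤
        (∫ d in (0:ℝ)..(4*π), vv σ (tt π) M d) := by
      apply intervalIntegral.integral_mono_on (by positivity)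
      · apply Continuous.intervalIntegrable; fun_prop
      · exact (contDiff_vv h1 h2 (htt0 π) (htt1 π) M).continuous.intervalIntegrable _ _
      · intro x _; exact hlow x
    linarith
  have hivt := intermediate_value_Icc (Real.pi_pos.le) hcont.continuousOn
  obtain ⟨φ, _, hφ⟩ := hivt ⟨hL0, hL1⟩
  refine ⟨M, tt φ, ?_, htt0 φ, htt1 φ, hφ⟩
  have : (0:ℝ) < M := by linarith
  exact_mod_cast this

/-- The closed-curve lemma. -/
lemma exists_curve (W : ℝ → ℝ) (hW : ContDiff ℝ ∞ W) (_hpos : ∀ x, 0 < W x)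
    (hper : ∀ x, W (x+1) = W x) (hlen : 2*π ≤ ∫ x in (0:ℝ)..1, W x)
    (σ : ℝ) (h1 : 1/2 ≤ σ) (h2 : σ < 1) :
    ∃ U T D : ℝ → ℝ, ContDiff ℝ ∞ U ∧ ContDiff ℝ ∞ T ∧ ContDiff ℝ ∞ D ∧
      (∀ x, 0 < U x ∧ U x < 1) ∧ (∀ x, U (x+1) = U x) ∧ (∀ x, T (x+1) = T x + 4*π*σ) ∧
      (∀ x, D (x+1) = D x + 4*π) ∧ (∀ x, deriv T x = U x * deriv D x) ∧
      (∀ x, (deriv U x)^2/(4*U x*(1-U x)) + U x*(1-U x)*(deriv D x)^2 = (W x)^2) := by
  obtain ⟨M, t, hM, ht0, ht1, hℓ⟩ := exists_amplitude h1 h2 hlen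
  have hv : ContDiff ℝ ∞ (vv σ t M) := contDiff_vv h1 h2 ht0 ht1 M
  set c := Real.sqrt ((1-σ)/8) with hc
  have hcpos : 0 < c := Real.sqrt_pos.mpr (by linarith)
  have hvlow : ∀ d, c ≤ vv σ t M d := vv_lower h1 h2 ht0 ht1 M
  have hvpos : ∀ d, 0 < vv σ t M d := fun d => lt_of_lt_of_le hcpos (hvlow d)
  set V : ℝ → ℝ := fun d => ∫ s in (0:ℝ)..d, vv σ t M s with hVdef
  have hVd : ∀ d, HasDerivAt V (vv σ t M d) d := hasDerivAt_primitive hv.continuous
  have hVsm : ContDiff ℝ ∞ V := contDiff_primitive hv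
  have hVmono : StrictMono V := strictMono_of_deriv_pos (fun d => by
    rw [(hVd d).deriv]; exact hvpos d)
  have hV0 : V 0 = 0 := by simp [V]
  have hmon : Monotone (fun d => V d - c * d) := by
    apply monotone_of_deriv_nonneg
    · intro d
      exact ((hVd d).sub ((hasDerivAt_id d).const_mul c)).differentiableAt
    · intro d
      have h3 : deriv (fun d => V d - c * d) d = vv σ t M d - c * 1 :=
        ((hVd d).sub ((hasDerivAt_id d).const_mul c)).deriv
      rw [h3]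
      linarith [hvlow d]
  have hVsurj : Function.Surjective V := by
    apply Continuous.surjective hVsm.continuous
    · apply Filter.tendsto_atTop_mono' _ _ (Filter.tendsto_id.const_mul_atTop hcpos)
      filter_upwards [Filter.eventually_ge_atTop (0:ℝ)] with d hd
      have := hmon hd
      simp only [hV0, mul_zero, sub_zero] at this
      simp only [id]
      linarith
    · apply Filter.tendsto_atBot_mono' _ _ (Filter.tendsto_id.const_mul_atBot hcpos)
      filter_upwards [Filter.eventually_le_atBot (0:ℝ)] with d hd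
      have := hmon hd
      simp only [hV0, mul_zero, sub_zero] at this
      simp only [id]
      linarith
  let e : ℝ ≃ₜ ℝ := (StrictMono.orderIsoOfSurjective V hVmono hVsurj).toHomeomorph
  have he : ∀ d, e d = V d := fun d => rfl
  have hefun : (e : ℝ → ℝ) = V := rfl
  have hesm : ContDiff ℝ ∞ (e.symm : ℝ → ℝ) := by
    apply e.contDiff_symm_deriv (f' := vv σ t M)
    · intro x; exact (hvpos x).ne'
    · intro x; rw [hefun]; exact hVd x
    · rw [hefun]; exact hVsm
  set X : ℝ → ℝ := fun x => ∫ s in (0:ℝ)..x, W s with hXdef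
  have hXsm : ContDiff ℝ ∞ X := contDiff_primitive hW
  have hXd : ∀ x, HasDerivAt X (W x) x := hasDerivAt_primitive hW.continuous
  set D : ℝ → ℝ := fun x => e.symm (X x) with hDdef
  have hDsm : ContDiff ℝ ∞ D := hesm.comp hXsm
  have hVD : ∀ x, V (D x) = X x := fun x => by
    rw [← he]; exact e.apply_symm_apply (X x)
  have hDdiff : ∀ x, HasDerivAt D (deriv D x) x := fun x =>
    (hDsm.differentiable (by simp) x).hasDerivAt
  have hrel : ∀ x, vv σ t M (D x) * deriv D x = W x := by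
    intro x
    have h3 : HasDerivAt (fun x => V (D x)) (vv σ t M (D x) * deriv D x) x :=
      (hVd (D x)).comp x (hDdiff x)
    have h4 : (fun x => V (D x)) = X := funext hVD
    rw [h4] at h3
    exact h3.unique (hXd x)
  have hVper : ∀ d, V (d + 4*π) = V d + V (4*π) := by
    intro d
    exact primitive_add_period hv.continuous (vv_periodic σ t M) d
  have hXper : ∀ x, X (x + 1) = X x + X 1 := by
    intro x
    exact primitive_add_period hW.continuous hper x
  have hVX : V (4*π) = X 1 := hℓ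
  have hDper : ∀ x, D (x+1) = D x + 4*π := by
    intro x
    apply hVmono.injective
    rw [hVD, hVper, hVD, hXper, hVX]
  have hMR : (M:ℝ) ≠ 0 := by positivity
  have hcosper : ∀ x, cos (M * D (x+1)) = cos (M * D x) := by
    intro x
    rw [hDper]
    have e1 : (M:ℝ) * (D x + 4*π) = M * D x + ((2*M : ℕ) : ℝ) * (2 * π) := by push_cast; ring
    rw [e1]; exact Real.cos_add_nat_mul_two_pi _ _
  have hsinper : ∀ x, sin (M * D (x+1)) = sin (M * D x) := by
    intro x
    rw [hDper]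
    have e1 : (M:ℝ) * (D x + 4*π) = M * D x + ((2*M : ℕ) : ℝ) * (2 * π) := by push_cast; ring
    rw [e1]; exact Real.sin_add_nat_mul_two_pi _ _
  refine ⟨fun x => uu σ t M (D x), fun x => σ * D x + t / M * sin (M * D x), D, ?_, ?_, hDsm,
    ?_, ?_, ?_, hDper, ?_, ?_⟩
  · unfold uu
    exact contDiff_const.add (contDiff_const.mul (Real.contDiff_cos.comp (contDiff_const.mul hDsm)))
  · exact (contDiff_const.mul hDsm).add
      (contDiff_const.mul (Real.contDiff_sin.comp (contDiff_const.mul hDsm)))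
  · intro x
    have := uu_bounds h1 h2 ht0 ht1 M (D x)
    constructor
    · linarith [this.1]
    · linarith [this.2]
  · intro x; simp only [uu, hcosper]
  · intro x
    have e2 := hsinper x
    show σ * D (x+1) + t / M * sin (M * D (x+1)) = σ * D x + t / M * sin (M * D x) + 4*π*σ
    rw [e2, hDper]
    ring
  · intro x
    have hs : HasDerivAt (fun x => sin (M * D x)) (cos (M * D x) * (M * deriv D x)) x :=
      ((hDdiff x).const_mul (M:ℝ)).sin
    have h3 : deriv (fun x => σ * D x + t / M * sin (M * D x)) x =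
        σ * deriv D x + t / M * (cos (M * D x) * (M * deriv D x)) :=
      (((hDdiff x).const_mul σ).add (hs.const_mul (t/M))).deriv
    rw [h3]
    simp only [uu]
    field_simp
  · intro x
    have hcd : HasDerivAt (fun x => cos (M * D x)) (-sin (M * D x) * (M * deriv D x)) x :=
      ((hDdiff x).const_mul (M:ℝ)).cos
    have h3 : deriv (fun x => uu σ t M (D x)) x = t * (-sin (M * D x) * (M * deriv D x)) :=
      ((hcd.const_mul t).const_add σ).deriv
    show (deriv (fun x => uu σ t M (D x)) x)^2 / (4 * uu σ t M (D x) * (1 - uu σ t M (D x)))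
      + uu σ t M (D x) * (1 - uu σ t M (D x)) * (deriv D x)^2 = (W x)^2
    rw [h3]
    have hsq : (vv σ t M (D x))^2 = (t * M * sin (M * D x))^2 / (4 * uu σ t M (D x) * (1 - uu σ t M (D x)))
    + uu σ t M (D x) * (1 - uu σ t M (D x)) := by
      unfold vv
      apply Real.sq_sqrt
      have := arg_pos h1 h2 ht0 ht1 M (D x)
      linarith [this, (by linarith : 0 < (1-σ)/8)]
    rw [← hrel x, mul_pow (vv σ t M (D x)), hsq]
    ring

end Vale.Agent.P205
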