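import Mathlib
import Vale.Agent.P205.Curve

open Real MeasureTheory intervalIntegral Set
open scoped ContDiff

namespace Vale.Agent.P205

/-- A continuous `1`-periodic function on the line is bounded below by one of its values. -/
lemma exists_min_of_periodic {f : ℝ → ℝ} (hf : Continuous f) (hper : ∀ x, f (x+1) = f x) :
    ∃ x₀, ∀ x, f x₀ ≤ f x := by
  obtain ⟨x₀, _, hx₀⟩ := isCompact_Icc.exists_isMinOn (s := Icc (0:ℝ) 1)
    ⟨0, by simp⟩ hf.continuousOn
  refine ⟨x₀, fun x => ?_⟩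
  have hp : Function.Periodic f 1 := hper
  obtain ⟨y, hy, hxy⟩ := hp.exists_mem_Ico₀ one_pos x
  rw [hxy]
  exact hx₀ ⟨hy.1, hy.2.le⟩

/-- The profile of the immersion. -/
theorem exists_profile (E F G : ℝ → ℝ) (hE : ContDiff ℝ ∞ E) (hF : ContDiff ℝ ∞ F)
    (hG : ContDiff ℝ ∞ G) (pE : ∀ x, E (x+1) = E x) (pF : ∀ x, F (x+1) = F x)
    (pG : ∀ x, G (x+1) = G x) (hGpos : ∀ x, 0 < G x)
    (hdet : ∀ x, 0 < E x * G x - F x ^ 2) :
    ∃ (k : ℕ) (m₁ m₂ : ℤ) (r₁ r₂ A₁ A₂ : ℝ → ℝ),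
      ContDiff ℝ ∞ r₁ ∧ ContDiff ℝ ∞ r₂ ∧ ContDiff ℝ ∞ A₁ ∧ ContDiff ℝ ∞ A₂ ∧
      (∀ x, r₁ (x+1) = r₁ x) ∧ (∀ x, r₂ (x+1) = r₂ x) ∧
      (∀ x, A₁ (x+1) = A₁ x + m₁ * (2*π)) ∧ (∀ x, A₂ (x+1) = A₂ x + m₂ * (2*π)) ∧
      (∀ x, (2*π*k)^2 * (r₁ x ^ 2 + r₂ x ^ 2) = G x) ∧
      (∀ x, (2*π*k) * (r₁ x ^ 2 * deriv A₁ x + r₂ x ^ 2 * deriv A₂ x) = F x) ∧
      (∀ x, deriv r₁ x ^ 2 + deriv r₂ x ^ 2 + r₁ x ^ 2 * deriv A₁ x ^ 2
        + r₂ x ^ 2 * deriv A₂ x ^ 2 = E x) := by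
  have hπ := Real.pi_pos
  have hGne : ∀ x, G x ≠ 0 := fun x => (hGpos x).ne'
  have hdG : ContDiff ℝ ∞ (deriv G) := (contDiff_infty_iff_deriv.mp hG).2
  have pdG : ∀ x, deriv G (x+1) = deriv G x := by
    intro x
    have : (fun y => G (y + 1)) = G := funext pG
    calc deriv G (x+1) = deriv (fun y => G (y+1)) x := by rw [deriv_comp_add_const]
      _ = deriv G x := by rw [this]
  set q : ℝ → ℝ := fun x => (E x * G x - F x ^2) / G x ^ 2 with hq
  set b : ℝ → ℝ := fun x => deriv G x ^ 2 / (4 * G x ^ 2) with hb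
  have hqpos : ∀ x, 0 < q x := fun x => div_pos (hdet x) (by have := hGpos x; positivity)
  have hqsm : ContDiff ℝ ∞ q := by
    apply ContDiff.div
    · exact (hE.mul hG).sub (hF.pow 2)
    · exact hG.pow 2
    · intro x; have := hGpos x; positivity
  have hbsm : ContDiff ℝ ∞ b := by
    apply ContDiff.div
    · exact hdG.pow 2
    · exact contDiff_const.mul (hG.pow 2)
    · intro x; have := hGpos x; positivity
  have pq : ∀ x, q (x+1) = q x := by intro x; simp [q, pE, pF, pG]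
  have pb : ∀ x, b (x+1) = b x := by intro x; simp [b, pG, pdG]
  obtain ⟨x₀, hx₀⟩ := exists_min_of_periodic hqsm.continuous pq
  obtain ⟨x₁, hx₁⟩ := exists_min_of_periodic (f := fun x => - b x) hbsm.continuous.neg
    (by intro x; simp [pb])
  have hb1 : ∀ x, b x ≤ b x₁ := fun x => by simpa using hx₁ x
  have hb0 : 0 ≤ b x₁ := by
    simp only [b]; positivity
  obtain ⟨k, hk⟩ := exists_nat_gt (max 1 ((b x₁ + (2*π)^2) / ((2*π)^2 * q x₀)))
  have hk1 : (1:ℝ) < k := lt_of_le_of_lt (le_max_left _ _) hk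
  have hk2 : (b x₁ + (2*π)^2) / ((2*π)^2 * q x₀) < k := lt_of_le_of_lt (le_max_right _ _) hk
  have hden : 0 < (2*π)^2 * q x₀ := by have := hqpos x₀; positivity
  rw [div_lt_iff₀ hden] at hk2
  set K : ℝ := 2*π*k with hK
  have hKpos : 0 < K := by positivity
  have hWlow : ∀ x, (2*π)^2 ≤ K^2 * q x - b x := by
    intro x
    have h1 := hx₀ x
    have h2 := hb1 x
    have h3 : K^2 * q x₀ ≤ K^2 * q x := by gcongr
    have h4 : k * ((2*π)^2 * q x₀) ≤ K^2 * q x₀ := by
      have : K^2 * q x₀ = (k*k) * ((2*π)^2 * q x₀) := by rw [hK]; ring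
      rw [this]
      have : (k:ℝ) ≤ k * k := by nlinarith
      gcongr
    linarith
  set W : ℝ → ℝ := fun x => Real.sqrt (K^2 * q x - b x) with hW
  have hWarg : ∀ x, 0 < K^2 * q x - b x := fun x => lt_of_lt_of_le (by positivity) (hWlow x)
  have hWsq : ∀ x, W x ^ 2 = K^2 * q x - b x := fun x => Real.sq_sqrt (hWarg x).le
  have hWpos : ∀ x, 0 < W x := fun x => Real.sqrt_pos.mpr (hWarg x)
  have hWsm : ContDiff ℝ ∞ W := by
    apply ContDiff.sqrt
    · exact (contDiff_const.mul hqsm).sub hbsm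
    · intro x; exact (hWarg x).ne'
  have hWper : ∀ x, W (x+1) = W x := by intro x; simp [W, pq, pb]
  have hW2π : ∀ x, 2*π ≤ W x := by
    intro x
    apply Real.le_sqrt_of_sq_le (hWlow x)
  have hlen : 2*π ≤ ∫ x in (0:ℝ)..1, W x := by
    have h1 : (∫ x in (0:ℝ)..1, (2*π : ℝ)) ≤ ∫ x in (0:ℝ)..1, W x := by
      apply intervalIntegral.integral_mono_on (by norm_num)
      · exact continuous_const.intervalIntegrable _ _
      · exact hWsm.continuous.intervalIntegrable _ _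
      · intro x _; exact hW2π x
    simpa using h1
  -- the gauge function
  set p : ℝ → ℝ := fun x => K * F x / G x with hp
  have hpsm : ContDiff ℝ ∞ p := (contDiff_const.mul hF).div hG hGne
  have hpper : ∀ x, p (x+1) = p x := by intro x; simp [p, pF, pG]
  set ψ : ℝ → ℝ := fun x => ∫ t in (0:ℝ)..x, p t with hψ
  have hψsm : ContDiff ℝ ∞ ψ := contDiff_primitive hpsm
  have hψd : ∀ x, HasDerivAt ψ (p x) x := hasDerivAt_primitive hpsm.continuous
  set B : ℝ := ∫ t in (0:ℝ)..1, p t with hB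
  have hψper : ∀ x, ψ (x+1) = ψ x + B := primitive_add_period hpsm.continuous hpper
  set z : ℝ := -B / (2*π) with hz
  set σ : ℝ := (1 + Int.fract z) / 2 with hσ
  have hσ1 : 1/2 ≤ σ := by have := Int.fract_nonneg z; rw [hσ]; linarith
  have hσ2 : σ < 1 := by have := Int.fract_lt_one z; rw [hσ]; linarith
  have hσB : 4*π*σ + B = ((1 - ⌊z⌋ : ℤ) : ℝ) * (2*π) := by
    have h1 : z * (2*π) = -B := by rw [hz]; field_simp
    have h2 : Int.fract z = z - ⌊z⌋ := rfl
    rw [hσ, h2]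
    push_cast
    nlinarith
  obtain ⟨U, T, D, hUsm, hTsm, hDsm, hU01, hUper, hTper, hDper, hTD, hUW⟩ :=
    exists_curve W hWsm hWpos hWper hlen σ hσ1 hσ2
  have hUd : ∀ x, HasDerivAt U (deriv U x) x := fun x =>
    (hUsm.differentiable (by simp) x).hasDerivAt
  have hTd : ∀ x, HasDerivAt T (deriv T x) x := fun x =>
    (hTsm.differentiable (by simp) x).hasDerivAt
  have hDd : ∀ x, HasDerivAt D (deriv D x) x := fun x =>
    (hDsm.differentiable (by simp) x).hasDerivAt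
  have hGd : ∀ x, HasDerivAt G (deriv G x) x := fun x =>
    (hG.differentiable (by simp) x).hasDerivAt
  set ρ : ℝ → ℝ := fun x => Real.sqrt (G x) / K with hρ
  set α : ℝ → ℝ := fun x => Real.sqrt (1 - U x) with hα
  set β : ℝ → ℝ := fun x => Real.sqrt (U x) with hβ
  have hρsm : ContDiff ℝ ∞ ρ := (hG.sqrt hGne).div_const K
  have hαsm : ContDiff ℝ ∞ α := (contDiff_const.sub hUsm).sqrt (fun x => by
    have := (hU01 x).2; exact (by linarith : 0 < 1 - U x).ne')
  have hβsm : ContDiff ℝ ∞ β := hUsm.sqrt (fun x => (hU01 x).1.ne')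
  have hρpos : ∀ x, 0 < ρ x := fun x => div_pos (Real.sqrt_pos.mpr (hGpos x)) hKpos
  have hαpos : ∀ x, 0 < α x := fun x => Real.sqrt_pos.mpr (by linarith [(hU01 x).2])
  have hβpos : ∀ x, 0 < β x := fun x => Real.sqrt_pos.mpr (hU01 x).1
  have hαsq : ∀ x, α x ^ 2 = 1 - U x := fun x => Real.sq_sqrt (by linarith [(hU01 x).2])
  have hβsq : ∀ x, β x ^ 2 = U x := fun x => Real.sq_sqrt (hU01 x).1.le
  have hρsq : ∀ x, ρ x ^ 2 = G x / K^2 := fun x => by
    simp only [ρ]; rw [div_pow, Real.sq_sqrt (hGpos x).le]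
  have hρd : ∀ x, HasDerivAt ρ (deriv G x / (2 * K^2 * ρ x)) x := by
    intro x
    have h1 := ((hGd x).sqrt (hGne x)).div_const K
    have h0 : Real.sqrt (G x) ≠ 0 := (Real.sqrt_pos.mpr (hGpos x)).ne'
    have h2 : deriv G x / (2 * K^2 * ρ x) = deriv G x / (2 * Real.sqrt (G x)) / K := by
      rw [show ρ x = Real.sqrt (G x) / K from rfl]
      have := hKpos.ne'
      field_simp
    rw [h2]
    exact h1
  have hαd : ∀ x, HasDerivAt α (-(deriv U x) / (2 * α x)) x := by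
    intro x
    have h1 := ((hUd x).const_sub 1).sqrt (by linarith [(hU01 x).2] : (0:ℝ) < 1 - U x).ne'
    exact h1
  have hβd : ∀ x, HasDerivAt β (deriv U x / (2 * β x)) x := by
    intro x
    exact (hUd x).sqrt (hU01 x).1.ne'
  have hr1d : ∀ x, HasDerivAt (fun x => ρ x * α x)
      (deriv G x / (2 * K^2 * ρ x) * α x + ρ x * (-(deriv U x) / (2 * α x))) x := fun x =>
    (hρd x).mul (hαd x)
  have hr2d : ∀ x, HasDerivAt (fun x => ρ x * β x)
      (deriv G x / (2 * K^2 * ρ x) * β x + ρ x * (deriv U x / (2 * β x))) x := fun x =>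
    (hρd x).mul (hβd x)
  have hA1d : ∀ x, HasDerivAt (fun x => ψ x + T x) (p x + U x * deriv D x) x := fun x => by
    have := (hψd x).add (hTd x)
    rw [hTD] at this
    exact this
  have hA2d : ∀ x, HasDerivAt (fun x => ψ x + T x - D x) (p x + U x * deriv D x - deriv D x) x :=
    fun x => (hA1d x).sub (hDd x)
  refine ⟨k, 1 - ⌊z⌋, 1 - ⌊z⌋ - 2, fun x => ρ x * α x, fun x => ρ x * β x, fun x => ψ x + T x,
    fun x => ψ x + T x - D x, hρsm.mul hαsm, hρsm.mul hβsm, hψsm.add hTsm,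
    (hψsm.add hTsm).sub hDsm, ?_, ?_, ?_, ?_, ?_, ?_, ?_⟩
  · intro x; simp only [ρ, α, hUper, pG]
  · intro x; simp only [ρ, β, hUper, pG]
  · intro x
    show ψ (x+1) + T (x+1) = _
    rw [hψper, hTper]
    linarith [hσB]
  · intro x
    show ψ (x+1) + T (x+1) - D (x+1) = _
    rw [hψper, hTper, hDper]
    have := hσB
    push_cast at this ⊢
    linarith [hσB]
  · intro x
    show K^2 * ((ρ x * α x)^2 + (ρ x * β x)^2) = G x
    rw [mul_pow (ρ x), mul_pow (ρ x), hαsq, hβsq, hρsq]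
    field_simp
    ring
  · intro x
    show K * ((ρ x * α x)^2 * deriv (fun x => ψ x + T x) x
      + (ρ x * β x)^2 * deriv (fun x => ψ x + T x - D x) x) = F x
    rw [(hA1d x).deriv, (hA2d x).deriv, mul_pow, mul_pow, hαsq, hβsq, hρsq]
    simp only [p]
    have := hGne x
    field_simp
    ring
  · intro x
    show deriv (fun x => ρ x * α x) x ^ 2 + deriv (fun x => ρ x * β x) x ^ 2
      + (ρ x * α x)^2 * deriv (fun x => ψ x + T x) x ^ 2
      + (ρ x * β x)^2 * deriv (fun x => ψ x + T x - D x) x ^ 2 = E x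
    rw [(hA1d x).deriv, (hA2d x).deriv, (hr1d x).deriv, (hr2d x).deriv]
    have hα0 := (hαpos x).ne'
    have hβ0 := (hβpos x).ne'
    have hρ0 := (hρpos x).ne'
    have e1 : (deriv G x / (2 * K^2 * ρ x) * α x + ρ x * (-(deriv U x) / (2 * α x)))^2
        + (deriv G x / (2 * K^2 * ρ x) * β x + ρ x * (deriv U x / (2 * β x)))^2
        = (deriv G x / (2 * K^2 * ρ x))^2 * (α x^2 + β x^2)
          + ρ x^2 * (deriv U x^2 / (4 * α x^2) + deriv U x^2/(4 * β x^2)) := by
      field_simp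
      ring
    have e2 : (deriv G x / (2 * K^2 * ρ x))^2 = deriv G x^2 / (4 * K^4 * ρ x^2) := by
      field_simp
      ring
    have e3 : deriv U x^2 / (4 * α x^2) + deriv U x^2/(4 * β x^2)
        = deriv U x^2 / (4 * U x * (1 - U x)) := by
      rw [hαsq, hβsq]
      have h1 := (hU01 x).1.ne'
      have h2 : 1 - U x ≠ 0 := (by linarith [(hU01 x).2] : (0:ℝ) < 1 - U x).ne'
      field_simp
      ring
    have e4 : (ρ x * α x)^2 * (p x + U x * deriv D x) ^ 2
      + (ρ x * β x)^2 * (p x + U x * deriv D x - deriv D x) ^ 2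
      = ρ x^2 * (p x^2 + U x * (1 - U x) * deriv D x^2) := by
      rw [mul_pow, mul_pow, hαsq, hβsq]
      ring
    have e5 : α x^2 + β x^2 = 1 := by rw [hαsq, hβsq]; ring
    calc _ = ((deriv G x / (2 * K^2 * ρ x) * α x + ρ x * (-(deriv U x) / (2 * α x)))^2
        + (deriv G x / (2 * K^2 * ρ x) * β x + ρ x * (deriv U x / (2 * β x)))^2)
        + ((ρ x * α x)^2 * (p x + U x * deriv D x) ^ 2
      + (ρ x * β x)^2 * (p x + U x * deriv D x - deriv D x) ^ 2) := by ring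
      _ = deriv G x^2 / (4 * K^4 * ρ x^2) + ρ x^2 * p x^2
        + ρ x^2 * (deriv U x^2 / (4 * U x * (1 - U x)) + U x * (1 - U x) * deriv D x^2) := by
          rw [e1, e4, e5, e2, e3]; ring
      _ = deriv G x^2 / (4 * K^4 * ρ x^2) + ρ x^2 * p x^2 + ρ x^2 * (K^2 * q x - b x) := by
          rw [hUW, hWsq]
      _ = E x := by
          rw [hρsq]
          simp only [p, q, b]
          have := hGne x
          have := hKpos.ne'
          field_simp
          ring

end Vale.Agent.P205
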